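import Vale.Agent.P184.H788.ProdN
import Vale.Agent.P184.H13.FinQuot
import Vale.Agent.P184.H13.GPT
import Vale.Agent.P184.H13.Univ3

namespace Vale.Agent.Results.P184.BassPermanence

open Vale.Agent.P184 Vale.Agent.P184.H788

universe u v w x

/-- Permanence properties of the `ℓ¹`-Bass conjecture for arbitrary groups. -/
theorem result :
    (∀ (G : Type u) (B : Type v) [Group G] [Group B],
      ((∀ a b : B, a * b = b * a) ∨ Finite B ∨
        (∀ T : Finset B, W.Nice (Subgroup.closure (T : Set B)) ∧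
          TorSep (Subgroup.closure (T : Set B)))) →
      (L1Bass (G × B) ↔ L1Bass G)) ∧
    (∀ (K : Type u) (ι : Type v) [Group K] [Finite ι] (H : ι → Subgroup K),
      (∀ i, (H i).FiniteIndex) → (∀ x : K, ∃ i, ∃ g : K, g * x * g⁻¹ ∈ H i) →
      (∀ i, L1Bass (H i)) → L1Bass K) ∧
    (∀ (G : Type u) (Q : Type v) [Group G] [Group Q] (π : G →* Q), Function.Surjective π →
      Finite π.ker → L1Bass G → L1Bass Q) ∧
    (∀ (V : Type u) (Γ : SimpleGraph V) (G : V → Type v) (S : Type w) (P : Type x)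
      [∀ a, Group (G a)] [Group S] [Group P] (f : Monoid.CoprodI G →* P),
      H13.IsGraphProduct Γ G f →
        (L1Bass (S × P) ↔ ∀ C : Finset V, Γ.IsClique C → L1Bass (S × ∀ a : C, G a))) ∧
    (∃ (U : Type) (_ : Group U), (∃ x t : U, Subgroup.closure {x, t} = ⊤) ∧
      (L1Bass U ↔ ∀ (G : Type u) [Group G], L1Bass G)) := by
  refine ⟨fun G B _ _ h => ?_, fun K ι _ _ H h1 h2 h3 => bass_of_cover H h1 h2 h3,
    fun G Q _ _ π hs _ hG => H13.bass_of_surj π hs hG,
    fun V Γ G S P _ _ _ f hf => H13.graphProduct Γ G S f hf, H13.Univ.universal⟩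
  rcases h with h | h | h
  · exact ⟨fun hG => H11.l1Bass_retract (MonoidHom.inl G B) (MonoidHom.fst G B) (fun _ => rfl) hG,
      bass_prod_comm h⟩
  · exact bass_prod_finite
  · exact bass_prod_locNice h

end Vale.Agent.Results.P184.BassPermanence
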