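import Vale.Agent.P184.H444.GitEE

/-!
# The `ℓ¹`-Bass conjecture for groups mapping to quotients of free groups, linear relations
between the traces from almost equal cocycles, and groups of homeomorphisms of the line
-/

open Vale.Agent.P184 Vale.Agent.P184.H444 Filter

namespace Vale.Agent.Results.P184.Crossed

universe u v w x

theorem result :
    (∀ (G : Type v) (X : Type u) [Group G] (N : Subgroup (FreeGroup X)) [N.Normal] (c : ℕ)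
      (ϕ : G →* FreeGroup X ⧸ Uker N c) (g : G), 2 ≤ c → ϕ g ≠ 1 → VanishesAt g) ∧
    (∀ (G : Type v) [Group G],
      (∀ g : G, g ≠ 1 → ∃ (X : Type u) (N : Subgroup (FreeGroup X)) (_ : N.Normal) (c : ℕ)
        (ϕ : G →* FreeGroup X ⧸ Uker N c), 2 ≤ c ∧ ϕ g ≠ 1) → L1Bass G) ∧
    (∀ (G : Type v) (X : Type u) [Group G] (N M : Subgroup (FreeGroup X)) [N.Normal] [M.Normal]
      (ϕ : G →* FreeGroup X ⧸ M) (g : G), M ≤ N →
      (M ≤ ⁅N, N⁆ → ϕ g ∉ ⁅N, N⁆.map (QuotientGroup.mk' M) → VanishesAt g) ∧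
      ((∀ (φ : N →* N) (n : N), (n : FreeGroup X) ∈ M → (φ n : FreeGroup X) ∈ M) →
        (M ≠ N → (∀ n : ℕ, 0 < n → ϕ g ^ n ∉ N.map (QuotientGroup.mk' M)) → VanishesAt g) ∧
        (Amen (N.map (QuotientGroup.mk' M)) →
          (M ≠ N → ¬ IsOfFinOrder (ϕ g) → VanishesAt g) ∧
          (M ≤ ⁅N, N⁆ → (∀ x : N.map (QuotientGroup.mk' M), x ≠ 1 → ¬ IsOfFinOrder x) →
            (ϕ g ≠ 1 → VanishesAt g) ∧ L1Bass (FreeGroup X ⧸ M))))) ∧
    (∀ (G : Type v) (L : Type w) (X : Type x) [Group G] [Group L] [MulAction G X]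
      (α β : G → X → L), CocPair α β → ∀ w : L, w ≠ 1 → VanishesAt w →
      ∃ D : ConjClasses G → ℤ,
        (∀ g, D (ConjClasses.mk g) =
          ({x | g • x = x ∧ IsConj w (α g x) ∧ ¬ IsConj w (β g x)}.ncard : ℤ) -
          ({x | g • x = x ∧ IsConj w (β g x) ∧ ¬ IsConj w (α g x)}.ncard : ℤ)) ∧
        ∀ (q : ℕ) (e : Matrix (Fin q) (Fin q) (G → ℂ)), IsIdem e →
          (Summable fun C : ConjClasses G => (D C : ℂ) * tau C e) ∧
          ∑' C : ConjClasses G, (D C : ℂ) * tau C e = 0) ∧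
    (∀ (G : Type v) (L : Type w) [Group G] [Group L] (H : Subgroup G) (α β : G → G ⧸ H → L),
      CocPair α β →
      ∀ g : H, ¬ IsConj (α g ((1 : G) : G ⧸ H)) (β g ((1 : G) : G ⧸ H)) →
        ((Amen H ∧ ¬ IsOfFinOrder g) ∨ (Amen L ∧ ¬ IsOfFinOrder (α g ((1 : G) : G ⧸ H))) ∨
          VanishesAt ((g, α g ((1 : G) : G ⧸ H)) : H × L)) → VanishesAt (g : G)) ∧
    (∀ (G : Type v) [Group G] (ρ : G →* (ℝ ≃o ℝ)), (∀ g, PProj (ρ g)) →
      (∀ g, ρ g ≠ 1 → VanishesAt g) ∧ (Function.Injective ρ → L1Bass G)) ∧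
    (∀ (G : Type v) [Group G] (ρ : G →* (ℝ ≃o ℝ)), (∀ g, PAn (ρ g)) →
      (∀ g, ρ g ≠ 1 → (∃ a b : ℝ, a < b ∧ ∀ t, a < t → t < b → ρ g t = t) → VanishesAt g) ∧
      (((∃ p : ℝ, ∀ g, ρ g p = p) ∨ ∀ g, ∃ a b : ℝ, ∀ᶠ t in atTop, ρ g t = a * t + b) →
        (∀ g, ρ g ≠ 1 → VanishesAt g) ∧ (Function.Injective ρ → L1Bass G))) ∧
    (∀ (G : Type v) [Group G] (σ : G → (ℝ ≃o ℝ)), CircAct σ → ∀ (g : G) (m : ℤ),
      (∃ a b : ℝ, a < b ∧ ∀ t, a < t → t < b → σ g t = t + m) → (∃ t, σ g t ≠ t + m) →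
      VanishesAt g) ∧
    ∀ (G : Type v) [Group G] (K N : Subgroup G) [K.Normal] [N.Normal], K ⊓ N = ⊥ →
      (∀ g ∉ K, VanishesAt g) → L1Bass (G ⧸ N) → L1Bass G := by
  refine ⟨fun G X _ N _ c ϕ g hc hg => uker_pull N c hc ϕ g hg, ?_, ?_, ?_, ?_,
    fun G _ ρ hρ => ⟨fun g hg => line_vanish ρ hρ g hg, fun hi => line_bass ρ hρ hi⟩,
    fun G _ ρ hρ => ⟨fun g hg ⟨a, b, hab, hI⟩ => an_interval ρ hρ g hg a b hab hI, fun h =>
      ⟨fun g hg => fix_or_aff ρ hρ h g hg, fun hi => fix_or_aff_bass ρ hρ h hi⟩⟩,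
    fun G _ σ hσ g m ⟨a, b, hab, hI⟩ hy => circle_interval σ hσ g m a b hab hI hy,
    fun G _ K N _ _ hKN hv h => bass_of_off K N hKN hv h⟩
  · intro G _ h
    refine l1Bass_of_vanish fun g hg => ?_
    obtain ⟨X, N, _, c, ϕ, hc, hϕ⟩ := h g hg
    exact uker_pull N c hc ϕ g hϕ
  · intro G X _ N M _ _ ϕ g hMN
    refine ⟨fun hM hg => ?_, fun hinv => ⟨fun hne hg => ?_, fun hP => ⟨fun hne hg => ?_,
      fun hM ht => ?_⟩⟩⟩
    · obtain ⟨w, hw⟩ := QuotientGroup.mk'_surjective M (ϕ g)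
      exact outside_pull N M hM ϕ g w hw.symm fun h => hg ⟨w, h, hw⟩
    · refine infinite_pull hMN hne hinv ϕ g fun h => ?_
      obtain ⟨n, hn, h1⟩ := isOfFinOrder_iff_pow_eq_one.1 h
      refine hg n hn ?_
      obtain ⟨w, hw⟩ := QuotientGroup.mk'_surjective M (ϕ g ^ n)
      refine ⟨w, ?_, hw⟩
      rw [← map_pow, ← hw] at h1
      exact (QuotientGroup.eq_one_iff w).1 h1
    · exact all_infinite hMN hne hinv (fun x hx => md_of_amen hP x hx) ϕ g hg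
    · have h1 : ∀ x : N.map (QuotientGroup.mk' M), x ≠ 1 → Md x :=
        fun x hx => md_of_amen hP x (ht x hx)
      exact ⟨fun hg => all_pull hM hinv h1 ϕ g hg, l1Bass_of_vanish fun x hx =>
        all_pull hM hinv h1 (MonoidHom.id _) x hx⟩
  · rintro G L X _ _ _ α β ⟨hα, hβ, hfin⟩ w hw1 hw
    exact relation' ⟨α, hα⟩ ⟨β, hβ⟩ hfin hw hw1
  · rintro G L _ _ H α β ⟨hα, hβ, hfin⟩ g hne hv
    refine transfer ⟨α, hα⟩ ⟨β, hβ⟩ hfin g hne ?_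
    rcases hv with ⟨h1, h2⟩ | ⟨h1, h2⟩ | h1
    · exact (Md.hom (MonoidHom.fst _ _) (md_of_amen h1 g h2)).vanish
    · exact (Md.hom (MonoidHom.snd _ _) (md_of_amen h1 _ h2)).vanish
    · exact h1

end Vale.Agent.Results.P184.Crossed
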