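import Vale.Agent.P184.H13.Ext

namespace Vale.Agent.Results.P184.IntegralTraces

open Vale.Agent.P184 Vale.Agent.P184.H13

universe u v w

/-- The `ℓ¹`-Bass conjecture for wreath products with an abelian base group over an arbitrary
group `Q`, for the quotients `F / [R, R] R ^ n` of a free group `F`, and the trace theorem for
groups with an abelian kernel and a finitely supported cocycle. -/
theorem result :
    (∀ (A : Type u) (Q : Type v) [AddCommGroup A] [Group Q],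
      (L1Bass (Wr A Q) ↔ L1Bass Q) ∧
      (∀ t : Wr A Q, ¬ IsOfFinOrder t → ¬ IsConj t (Wr.incl t.pt) → VanishesAt t) ∧
      ((∀ s : Q, ¬ IsOfFinOrder s → VanishesAt s) →
        ∀ t : Wr A Q, ¬ IsOfFinOrder t → VanishesAt t)) ∧
    (∀ (ι : Type u) (R : Subgroup (FreeGroup ι)) [R.Normal] (n : ℕ), n ≠ 1 →
      (∀ t : FreeGroup ι ⧸ rel R n, ¬ IsOfFinOrder t → VanishesAt t) ∧
      ((∀ (q : ℕ) (e : Matrix (Fin q) (Fin q) ((FreeGroup ι ⧸ R) → ℂ)), IsIdem e →
        {C : ConjClasses (FreeGroup ι ⧸ R) | tau C e ≠ 0 ∧ ∃ s, ConjClasses.mk s = C ∧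
          s ≠ 1 ∧ IsOfFinOrder s ∧ (orderOf s).Coprime n}.Finite) →
        L1Bass (FreeGroup ι ⧸ rel R n))) ∧
    ∀ (G : Type u) (Q : Type v) (A : Type w) [Group G] [Group Q] [AddCommGroup A]
      (Z : Coc G Q A), (∀ a b, Z.pi a = 1 → Z.pi b = 1 → Commute a b) →
      (∀ t, ¬ IsOfFinOrder t → (∃ x, Z.D t x ≠ 0) → VanishesAt t) ∧
      (∀ (q : ℕ) (e : Matrix (Fin q) (Fin q) (G → ℂ)), IsIdem e →
        {C : ConjClasses G | tau C e ≠ 0 ∧
          ∃ t, ConjClasses.mk t = C ∧ ∃ x, Z.D t x ≠ 0}.Finite) ∧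
      (Function.Surjective Z.pi →
        (∀ t t', Z.pi t = Z.pi t' → (∀ x, Z.D t x = 0) → (∀ x, Z.D t' x = 0) →
          IsConj t t') → L1Bass Q → L1Bass G) := by
  refine ⟨fun A Q _ _ => ?_, fun ι R _ n hn => magnus_cor R n hn,
    fun G Q A _ _ _ Z hZ => ⟨(mainThm Z hZ).1, fun q e he => fin_all Z hZ he,
      fun h1 h2 h3 => ext_bass Z hZ h1 h2 h3⟩⟩
  obtain ⟨h1, h2⟩ := H856.rowWreath mainThm (A := A) (Q := Q)
  have h3 : ∀ t : Wr A Q, ¬ IsOfFinOrder t → ¬ IsConj t (Wr.incl t.pt) → VanishesAt t := by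
    intro t ht hc
    refine (mainThm Wr.coc H856.comm_ker).1 t ht ?_
    by_contra h
    exact hc ((h2 t).1 fun x => by_contra fun hx => h ⟨x, hx⟩)
  refine ⟨h1, h3, fun hQ t ht => ?_⟩
  by_cases hc : IsConj t (Wr.incl t.pt)
  · refine vanish_ext Wr.coc H856.comm_ker (fun s => ⟨Wr.incl s, rfl⟩) ?_ hQ t fun h => ht ?_
    · intro t t' hp hx hx'
      have h4 := (h2 t).1 hx
      have h5 := (h2 t').1 hx'
      have h6 : t.pt = t'.pt := hp
      rw [h6] at h4
      exact h4.trans h5.symm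
    · have h7 : IsOfFinOrder (Wr.incl (A := A) t.pt) := Wr.incl.isOfFinOrder h
      exact hc.symm.isOfFinOrder h7
  · exact h3 t ht hc

end Vale.Agent.Results.P184.IntegralTraces
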