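import Vale.Agent.P184.H788.VConv
import Vale.Agent.P184.H788.VK1
import Vale.Agent.P184.H290.Loc
import Vale.Agent.P184.H290.WAm
import Vale.Agent.P184.H11.TreeConv
import Vale.Agent.P184.H11.HnnLoc
import Vale.Agent.P184.H11.WVa

namespace Vale.Agent.Results.P184.TreeActions

open Vale.Agent.P184 Vale.Agent.P184.H290 Vale.Agent.P184.H788 Vale.Agent.P184.H977
open Vale.Agent.P184.H856 (VirtRetract)

universe u v w x

/-- The `ℓ¹`-Bass conjecture for groups acting on trees with finite edge stabilizers, for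
amalgams and HNN extensions of arbitrary groups, and for restricted wreath products of arbitrary
groups. -/
theorem result :
    (∀ (G : Type u) (V : Type v) [Group G] [MulAction G V] (T : SimpleGraph V), T.IsTree →
      (∀ (g : G) (a b : V), T.Adj a b → T.Adj (g • a) (g • b)) →
      (∀ a b : V, T.Adj a b →
        Finite (MulAction.stabilizer G a ⊓ MulAction.stabilizer G b : Subgroup G)) →
      ((∀ a : V, L1Bass (MulAction.stabilizer G a)) → L1Bass G) ∧
      ((∀ a : V, ∃ N : Finset V, ∀ b, T.Adj a b → ∀ x : G, x ≠ 1 → x • a = a → x • b = b →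
          ∃ g : G, g • a = a ∧ g • b ∈ N) →
        (L1Bass G ↔ ∀ a : V, L1Bass (MulAction.stabilizer G a)))) ∧
    (∀ (I : Type u) (G : I → Type v) (H : Type w) (S : Type x) [Nonempty I] [∀ i, Group (G i)]
      [Group H] [Group S] (φ : ∀ i, H →* G i), (∀ i, Function.Injective (φ i)) →
      (Finite H → (L1Bass (Monoid.PushoutI φ) ↔ ∀ i, L1Bass (G i))) ∧
      ((∀ T : Finset H, Finite (Subgroup.closure (T : Set H))) →
        (∀ i, L1Bass (G i)) → L1Bass (Monoid.PushoutI φ)) ∧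
      (∀ j : I, (∀ i, i ≠ j → VirtRetract (φ i)) →
        (∀ i, L1Bass (S × G i)) → L1Bass (S × Monoid.PushoutI φ)) ∧
      ((∀ i, VirtRetract (φ i)) → (L1Bass (S × Monoid.PushoutI φ) ↔ ∀ i, L1Bass (S × G i))) ∧
      ∀ (i : I) (K : Type u) [AddCommGroup K] [Module.Finite ℤ K] (χ : G i →* Multiplicative K),
        Function.Injective (χ.comp (φ i)) → VirtRetract (φ i)) ∧
    (∀ (G : Type u) (K : Type v) (S : Type x) [Group G] [Group K] [Group S] (A B : Subgroup G)
      (φ : A ≃* B),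
      (Finite A → (L1Bass (HNNExtension G A B φ) ↔ L1Bass G)) ∧
      ((∀ T : Finset A, Finite (Subgroup.closure (T : Set A))) →
        L1Bass G → L1Bass (HNNExtension G A B φ)) ∧
      ∀ r : G →* K, ((∀ a ∈ A, r a = 1) ∧ VirtRetract (r.comp B.subtype) ∨
          (∀ b ∈ B, r b = 1) ∧ VirtRetract (r.comp A.subtype)) →
        L1Bass (S × G) → L1Bass (S × HNNExtension G A B φ)) ∧
    (∀ (S : Type w) (B : Type u) (Q : Type v) [Group S] [Group B] [Group Q],
      (∀ t : S × RW B Q, ¬ IsOfFinOrder t.2.pt → (∀ w : Q, ¬ IsConj t.2 (RW.incl w)) →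
        VanishesAt t) ∧
      (L1Bass (S × Q) → (∀ s : Q, IsOfFinOrder s → ∀ k,
        L1Bass (S × RW (Fin k → B) (Subgroup.zpowers s))) → L1Bass (S × RW B Q)) ∧
      (Infinite Q → (L1Bass (S × RW B Q) ↔ L1Bass (S × Q) ∧
        ∀ s : Q, IsOfFinOrder s → ∀ k, L1Bass (S × RW (Fin k → B) (Subgroup.zpowers s)))) ∧
      (Nontrivial Q → (∀ s : Q, IsOfFinOrder s → s = 1) →
        (L1Bass (S × RW B Q) ↔ L1Bass (S × Q) ∧ ∀ k, L1Bass (S × (Fin k → B)))) ∧
      (((∀ b : B, IsOfFinOrder b → b = 1) ∧ H444.Amen B ∨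
          ∃ A : Subgroup B, A.FiniteIndex ∧ ∀ x ∈ A, ∀ y ∈ A, x * y = y * x) →
        (L1Bass (S × RW B Q) ↔ L1Bass (S × Q)))) := by
  refine ⟨fun G V _ _ T hT h1 h2 => ⟨H11.TreeConv.tree_main T hT h1 h2,
      fun hN => H11.TreeConv.tree_iff T hT h1 h2 hN⟩,
    fun I G H S _ _ _ _ φ hφ => ⟨fun _ => amalgam_finite φ hφ (rowQ_of_rowQ2 rowQ2),
      fun hH h => amalgam_locFinite φ hφ hH (rowQ_of_rowQ2 rowQ2) h,
      fun j hV h => amalgam_virt_spec S φ j (hφ j) hV h,
      fun hV => amalgam_virt_iff S φ hV,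
      fun _ _ _ _ χ hχ => H856.virtRetract_abelian χ hχ⟩,
    fun G K S _ _ _ A B φ => ⟨fun _ => H11.Hnn.hnn_finite φ,
      fun hA h => H11.HnnLoc.hnn_locFinite φ hA h,
      fun r hr h => hr.elim (fun hr => H788.K.hnn_spec S φ r hr.1 hr.2 h)
        fun hr => H788.K.hnn_spec' S φ r hr.1 hr.2 h⟩,
    fun S B Q _ _ _ => ⟨fun t ht hc => vanish_infS t ht hc,
      fun hQ h => H856.Loc.wreath_of hQ h, fun _ => H856.Loc.wreathS,
      fun _ htf => wreathS_torsionFree htf,
      fun h => h.elim (fun h => wreath_amen' h.2 h.1) fun ⟨A, _, hA⟩ => H11.WVa.wreath_va A hA⟩⟩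

end Vale.Agent.Results.P184.TreeActions
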